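import Vale.Agent.Lib.P062.MakerCert

/-!
# Compact encoding of certificates

A certificate is stored as a list of natural numbers, each packing 64 nodes of 24 bits, in
pre-order.  No correctness statement about the decoder is needed: the checker is run on whatever
it returns.
-/

namespace Vale.Agent.Lib.P062

/-- Split a number into `k` digits in base `2 ^ 24`. -/
def unpackN : ℕ → ℕ → List ℕ
  | 0, _ => []
  | k + 1, n => seqNat (n % 16777216) fun d => seqNat (n / 16777216) fun r => d :: unpackN k r

/-- Unpack a list of packed numbers. -/
def unpack : List ℕ → List ℕ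
  | [] => []
  | n :: l => unpackN 64 n ++ unpack l

/-- Parse a chain of `k` certificates from a stream of nodes. -/
def parseK : ℕ → ℕ → List ℕ → Option (MCert × List ℕ)
  | 0, _, _ => none
  | _ + 1, _, [] => none
  | f + 1, k, t :: rest =>
    let r : Option (MCert × List ℕ) :=
      if t % 2 = 0 then
        seqNat (t / 2 % 32) fun xa => seqNat (t / 64 % 32) fun xb => seqNat (t / 2048 % 8) fun o =>
        seqNat (t / 16384 % 32) fun ta => seqNat (t / 524288 % 32) fun tb =>
        some (.win xa xb o ta tb, rest)
      else
        seqNat (t / 2 % 32) fun xa => seqNat (t / 64 % 32) fun xb => seqNat (t / 2048) fun k' =>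
        match parseK f k' rest with
        | some (ch, l1) => some (.move xa xb ch, l1)
        | none => none
    match r with
    | none => none
    | some (c, l1) =>
      if k ≤ 1 then some (c, l1)
      else
        match parseK f (k - 1) l1 with
        | some (r2, l2) => some (.alt c r2, l2)
        | none => none

/-- Decode and check: returns the union and intersection masks. -/
def chkData (k : ℕ) (data : List ℕ) (M : ℕ) : Option (ℕ × ℕ) :=
  match parseK 4000 k (unpack data) with
  | some (c, _) => chk c M
  | none => none

theorem wins_of_chkData (k : ℕ) (data : List ℕ) (u i : ℕ)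
    (h : chkData k data (bitOf 11 11) = some (u, i)) (y : Cell)
    (hy0 : y ≠ (0, 0)) (hy : ¬ Mem i y) : MakerWins Set.univ IsCopy {(0, 0)} {y} := by
  unfold chkData at h
  split at h
  · exact wins_of_chk _ u i h y hy0 hy
  · exact absurd h (by simp)

/-- A successful run of the decoder and checker yields a valid certificate. -/
theorem ex_of_chkData {k : ℕ} {data : List ℕ} {M u i : ℕ}
    (h : chkData k data M = some (u, i)) : ∃ c : MCert, chk c M = some (u, i) := by
  unfold chkData at h
  split at h
  · exact ⟨_, h⟩
  · exact absurd h (by simp)

/-- Two valid chains of alternatives for the same position can be concatenated. -/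
theorem chk_merge (A : MCert) {B : MCert} {M uA iA uB iB : ℕ}
    (hA : chk A M = some (uA, iA)) (hB : chk B M = some (uB, iB)) :
    ∃ C : MCert, chk C M = some (uA ||| uB, iA &&& iB) := by
  induction A generalizing uA iA with
  | win xa xb o ta tb =>
    refine ⟨.alt (.win xa xb o ta tb) B, ?_⟩
    have hui : iA = uA := by
      simp only [chk] at hA
      split at hA
      · simp only [Option.some.injEq, Prod.mk.injEq] at hA
        rw [← hA.1, ← hA.2]
      · exact absurd hA (by simp)
    subst hui
    simp only [chk] at hA ⊢
    rw [hA, hB]
  | move xa xb alts _ =>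
    refine ⟨.alt (.move xa xb alts) B, ?_⟩
    have hui : iA = uA := by
      simp only [chk] at hA
      split at hA
      · split at hA
        · simp only [Option.some.injEq, Prod.mk.injEq] at hA
          rw [← hA.1, ← hA.2]
        · exact absurd hA (by simp)
      · exact absurd hA (by simp)
    subst hui
    simp only [chk] at hA ⊢
    rw [hA, hB]
  | alt c r _ ihr =>
    simp only [chk] at hA
    split at hA
    · rename_i u1 x1 u2 i2 h1 h2
      simp only [Option.some.injEq, Prod.mk.injEq] at hA
      obtain ⟨C', hC'⟩ := ihr h2
      refine ⟨.alt c C', ?_⟩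
      simp only [chk]
      rw [h1, hC', ← hA.1, ← hA.2, Nat.lor_assoc, Nat.land_assoc]
    · exact absurd hA (by simp)

/-- A Maker move in front of a chain of alternatives with empty common zone. -/
theorem chk_move_of {C : MCert} {M xa xb U I Z : ℕ}
    (h : chk C (M ||| bitOf xa xb) = some (U, I)) (hI : I = 0) (hZ : U ||| bitOf xa xb = Z) :
    chk (.move xa xb C) M = some (Z, Z) := by
  subst hI hZ
  simp only [chk]
  rw [h]
  simp

theorem wins_of_ex {u i : ℕ} (h : ∃ c : MCert, chk c (bitOf 11 11) = some (u, i)) (y : Cell)
    (hy0 : y ≠ (0, 0)) (hy : ¬ Mem i y) : MakerWins Set.univ IsCopy {(0, 0)} {y} := by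
  obtain ⟨c, hc⟩ := h
  exact wins_of_chk c u i hc y hy0 hy

end Vale.Agent.Lib.P062
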