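import Vale.Agent.Lib.P062.CertParse

/-!
# Composition of separately checked certificates
-/

namespace Vale.Agent.Lib.P062

theorem QQ_mono_left {M u v : ℕ} (h : QQ M u) : QQ M (u ||| v) := by
  intro M' B hM hd hu
  exact h M' B hM hd (fun c hc => hu c (mem_or.mpr (Or.inl hc)))

theorem QQ_mono_right {M u v : ℕ} (h : QQ M v) : QQ M (u ||| v) := by
  intro M' B hM hd hu
  exact h M' B hM hd (fun c hc => hu c (mem_or.mpr (Or.inr hc)))

/-- Adding one more alternative to a chain. -/
theorem PP_alt {M u1 u2 i2 : ℕ} (hc : QQ M u1) (hr : PP M u2 i2) :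
    PP M (u1 ||| u2) (u1 &&& i2) := by
  intro M' B y hM hd hu hy
  by_cases hy1 : Mem u1 y
  · refine hr M' B y hM hd (fun c hc => hu c (mem_or.mpr (Or.inr hc))) ?_
    intro hy2
    exact hy (mem_and hy1 hy2)
  · exact PP_of_QQ hc M' B y hM hd (fun c hc => hu c (mem_or.mpr (Or.inl hc))) hy1

/-- A Maker move followed by a chain of alternatives with empty common zone. -/
theorem QQ_move {M u : ℕ} (xa xb : ℕ) (Q1 : QQ (M ||| bitOf xa xb) u)
    (P1 : PP (M ||| bitOf xa xb) u 0) : QQ M (u ||| bitOf xa xb) := by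
  intro M' B hM hd hu
  have hu' : ∀ c, Mem u c → c ∉ B := fun c hc => hu c (mem_or.mpr (Or.inl hc))
  have hxB : cellOf xa xb ∉ B := hu _ (mem_or.mpr (Or.inr (mem_bitOf.mpr rfl)))
  by_cases hx : cellOf xa xb ∈ M'
  · refine Q1 M' B ?_ hd hu'
    intro c hc
    rcases mem_or.mp hc with h1 | h1
    · exact hM c h1
    · rw [mem_bitOf.mp h1]; exact hx
  · refine MakerWins.step _ (Set.mem_univ _) hx hxB ?_ ?_
    · obtain ⟨z, hz⟩ := exists_free (insert (cellOf xa xb) M' ∪ B)
      rw [Finset.mem_union, not_or] at hz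
      exact ⟨z, Set.mem_univ _, hz.1, hz.2⟩
    · intro y _ hy1 hy2
      refine P1 _ B y ?_ ?_ hu' (not_mem_zero y)
      · intro c hc
        rcases mem_or.mp hc with h1 | h1
        · exact Finset.mem_insert_of_mem (hM c h1)
        · rw [mem_bitOf.mp h1]; exact Finset.mem_insert_self _ _
      · rw [Finset.disjoint_left]
        intro a ha hb
        rcases Finset.mem_insert.mp hb with rfl | hb'
        · exact hy1 ha
        · rcases Finset.mem_insert.mp ha with rfl | ha'
          · exact hxB hb'
          · exact (Finset.disjoint_left.mp hd) ha' hb'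

theorem QQ_PP_of_chkData {k : ℕ} {data : List ℕ} {M u i : ℕ}
    (h : chkData k data M = some (u, i)) : QQ M u ∧ PP M u i := by
  unfold chkData at h
  split at h
  · exact chk_sound _ _ _ _ h
  · exact absurd h (by simp)

/-- From a zone statement at the one-stone position to wins against first replies. -/
theorem wins_of_QQ {u : ℕ} (h : QQ (bitOf 11 11) u) (y : Cell) (hy0 : y ≠ (0, 0))
    (hy : ¬ Mem u y) : MakerWins Set.univ IsCopy {(0, 0)} {y} := by
  have := PP_of_QQ h {(0, 0)} ∅ y ?_ ?_ (by simp) hy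
  · simpa using this
  · intro c hc
    rw [mem_bitOf.mp hc]
    simp [cellOf]
  · simp only [insert_empty_eq, Finset.disjoint_singleton_right, Finset.mem_singleton]
    exact hy0

end Vale.Agent.Lib.P062
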