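import Vale.Agent.Lib.P062.Game

/-!
# A Maker win excludes a Breaker strategy (infinite boards)
-/

namespace Vale.Agent.Lib.P062

section

variable {α : Type} [DecidableEq α] [Infinite α]

/-- Maker's cell number `n` when he first plays the list `l` and afterwards arbitrary free cells. -/
noncomputable def mv (l : List α) (n : ℕ) (M B : Finset α) : α :=
  if h : n < l.length then l[n] else (Infinite.exists_notMem_finset (M ∪ B)).choose

/-- The positions of the play in which Maker uses `mv l` and Breaker the strategy `σ`. -/
noncomputable def posOf (σ : Finset α → Finset α → α) (l : List α) : ℕ → Finset α × Finset α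
  | 0 => (∅, ∅)
  | n + 1 =>
    (insert (mv l n (posOf σ l n).1 (posOf σ l n).2) (posOf σ l n).1,
      insert (σ (insert (mv l n (posOf σ l n).1 (posOf σ l n).2) (posOf σ l n).1) (posOf σ l n).2)
        (posOf σ l n).2)

/-- Maker's sequence of cells in that play. -/
noncomputable def seqOf (σ : Finset α → Finset α → α) (l : List α) (n : ℕ) : α :=
  mv l n (posOf σ l n).1 (posOf σ l n).2

theorem play_seqOf (σ : Finset α → Finset α → α) (l : List α) (n : ℕ) :
    play σ (seqOf σ l) n = posOf σ l n := by
  induction n with
  | zero => rfl
  | succ n ih => simp only [play, posOf, ih, seqOf]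

theorem mv_append_lt (l : List α) (x : α) {k : ℕ} (hk : k < l.length) (M B : Finset α) :
    mv (l ++ [x]) k M B = mv l k M B := by
  have h2 : k < (l ++ [x]).length := by simp; omega
  simp only [mv, hk, h2, dif_pos]
  exact List.getElem_append_left hk

theorem mv_append_eq (l : List α) (x : α) (M B : Finset α) :
    mv (l ++ [x]) l.length M B = x := by
  have h2 : l.length < (l ++ [x]).length := by simp
  simp only [mv, h2, dif_pos]
  simp

theorem posOf_append (σ : Finset α → Finset α → α) (l : List α) (x : α) :
    ∀ k, k ≤ l.length → posOf σ (l ++ [x]) k = posOf σ l k := by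
  intro k
  induction k with
  | zero => intro _; rfl
  | succ k ih =>
    intro hk
    have hk' : k < l.length := hk
    simp only [posOf, ih (le_of_lt hk'), mv_append_lt l x hk']

theorem mv_free (l : List α) {k : ℕ} (hk : l.length ≤ k) (M B : Finset α) :
    mv l k M B ∉ M ∧ mv l k M B ∉ B := by
  have h := (Infinite.exists_notMem_finset (M ∪ B)).choose_spec
  have h2 : ¬ k < l.length := by omega
  simp only [mv, h2, dif_neg, not_false_eq_true]
  rw [Finset.mem_union, not_or] at h
  exact h

/-- The positions reachable against `σ` by legal Maker play. -/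
def ReachSafe (σ : Finset α → Finset α → α) (M B : Finset α) : Prop :=
  ∃ l : List α, posOf σ l l.length = (M, B) ∧
    ∀ k < l.length, seqOf σ l k ∉ (posOf σ l k).1 ∧ seqOf σ l k ∉ (posOf σ l k).2

theorem not_breakerWins_of_makerWins {W : Finset α → Prop}
    (h : MakerWins Set.univ W ∅ ∅) : ¬ BreakerWins Set.univ W := by
  rintro ⟨σ, hσ⟩
  have hS : IsSafe Set.univ W (ReachSafe σ) := by
    constructor
    · exact ⟨[], rfl, by simp⟩
    · rintro M B x ⟨l, hl, hleg⟩ _ hxM hxB
      have hpos : posOf σ (l ++ [x]) l.length = (M, B) := by
        rw [posOf_append σ l x _ le_rfl, hl]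
      have hseq : seqOf σ (l ++ [x]) l.length = x := by
        simp only [seqOf, mv_append_eq]
      have hlegal : ∀ n, seqOf σ (l ++ [x]) n ∈ (Set.univ : Set α) ∧
          seqOf σ (l ++ [x]) n ∉ (play σ (seqOf σ (l ++ [x])) n).1 ∧
          seqOf σ (l ++ [x]) n ∉ (play σ (seqOf σ (l ++ [x])) n).2 := by
        intro n
        refine ⟨Set.mem_univ _, ?_⟩
        rw [play_seqOf]
        rcases lt_trichotomy n l.length with hn | hn | hn
        · have h1 := hleg n hn
          have h2 : seqOf σ (l ++ [x]) n = seqOf σ l n := by
            simp only [seqOf, posOf_append σ l x n (le_of_lt hn), mv_append_lt l x hn]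
          rw [h2, posOf_append σ l x n (le_of_lt hn)]
          exact h1
        · subst hn
          rw [hseq, hpos]
          exact ⟨hxM, hxB⟩
        · exact mv_free _ (by simp; omega) _ _
      have key := hσ (seqOf σ (l ++ [x])) hlegal l.length
      rw [play_seqOf, hseq, hpos] at key
      have hnext : play σ (seqOf σ (l ++ [x])) (l.length + 1) =
          (insert x M, insert (σ (insert x M) B) B) := by
        simp only [play, play_seqOf, hseq, hpos]
      rw [hnext] at key
      refine ⟨key.2, σ (insert x M) B, key.1.1, key.1.2.1, key.1.2.2, l ++ [x], ?_, ?_⟩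
      · have : (l ++ [x]).length = l.length + 1 := by simp
        rw [this, ← play_seqOf, hnext]
      · intro k hk
        have := hlegal k
        rw [play_seqOf] at this
        exact this.2
  exact not_makerWins_of_safe hS ⟨[], rfl, by simp⟩ h

end

end Vale.Agent.Lib.P062
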