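import Vale.Agent.Lib.P062.FirstReplyAux

/-!
# Consequences of a Maker win against the diagonal first reply
-/

namespace Vale.Agent.Lib.P062

theorem wins_translate (o y : Cell) (h : WinsVs (y - o)) : MakerWins Set.univ IsCopy {o} {y} := by
  have := MakerWins.image (Equiv.addRight o) (isCopy_add o) h
  have h0 : ((0, 0) : Cell) + o = o := by
    ext <;> simp
  simpa [WinsVs, h0] using this

theorem winsVs_nonorth (a11 : WinsVs (1, 1)) (d : Cell) (hne : d ≠ (0, 0))
    (h : |d.1| + |d.2| ≠ 1) : WinsVs d := by
  by_cases hfar : 2 ≤ |d.1| ∨ 2 ≤ |d.2|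
  · exact winsVs_far d hfar
  · obtain ⟨a, b⟩ := d
    simp only [not_or, not_le] at hfar
    obtain ⟨ha, hb⟩ := hfar
    simp only at ha hb h
    rw [abs_lt] at ha hb
    have ha' : a = -1 ∨ a = 0 ∨ a = 1 := by omega
    have hb' : b = -1 ∨ b = 0 ∨ b = 1 := by omega
    have n11 : WinsVs (-1, 1) := winsVs_neg a11
    have s11 : WinsVs (1, -1) := winsVs_swap n11
    rcases ha' with rfl | rfl | rfl <;> rcases hb' with rfl | rfl | rfl
    · exact winsVs_neg s11
    · exact absurd (by norm_num) h
    · exact n11
    · exact absurd (by norm_num) h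
    · exact absurd rfl hne
    · exact absurd (by norm_num) h
    · exact s11
    · exact absurd (by norm_num) h
    · exact a11

/-- If Maker wins against the diagonal reply, he wins against every first reply which is not
orthogonally adjacent to his first stone. -/
theorem wins_nonorth (a11 : WinsVs (1, 1)) (o y : Cell) (hne : y ≠ o)
    (h : |y.1 - o.1| + |y.2 - o.2| ≠ 1) : MakerWins Set.univ IsCopy {o} {y} := by
  refine wins_translate o y (winsVs_nonorth a11 (y - o) ?_ (by simpa using h))
  intro h0
  apply hne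
  have : y - o = 0 := h0
  exact sub_eq_zero.mp this

theorem reduction_one (a11 : WinsVs (1, 1)) :
    MakerWins Set.univ IsCopy ∅ ∅ ↔ MakerWins Set.univ IsCopy {(0, 0)} {(1, 0)} := by
  rw [reduction]
  exact ⟨fun h => h.1, fun h => ⟨h, a11⟩⟩

end Vale.Agent.Lib.P062
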