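import Vale.Agent.Lib.P062.D11.DgTop
import Vale.Agent.Lib.P062.DiagAux

/-!
# Maker wins against the diagonal first reply
-/

namespace Vale.Agent.Lib.P062

/-- Maker wins the position with his stone at the origin and Breaker's stone at `(1, 1)`. -/
theorem winsVs_one_one : WinsVs (1, 1) := by
  have h : Fast.QQ (Nat.shiftLeft 1 363) 271942653192787774315145868963287902641144940296053464960695467304330823945593189434757903533318287715725160336746626605793734150935796351701579836666957219163038772127972866271737806848 :=
    (by decide +kernel : (18788340662190665823115844774314696219005460391266558965658327772257672200916867547709591987078149624255479808 : ℕ) = Nat.shiftLeft 1 363) ▸ Fast.DgTop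
  have hc : ((1, 1) : Cell) = Fast.cellAt 396 := by
    simp [Fast.cellAt]
  refine Fast.wins_of_QQ h (1, 1) (by simp) ?_
  rw [hc]
  exact Fast.not_mem_cellAt (by decide +kernel)

end Vale.Agent.Lib.P062
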