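import Vale.Agent.Lib.P062.MakerCert

/-!
# A faster checker for Maker certificates

Same certificates as in `MakerCert`/`CertParse` (pre-order stream of 24-bit nodes), but the stream is
checked directly, masks use the row-major bit index `a + 32 * b`, and the checker is written with
raw recursors and raw `Nat` operations, which the kernel evaluates about five times faster.
-/

namespace Vale.Agent.Lib.P062.Fast

/-- The cell with bit index `j`. -/
def cellAt (j : ℕ) : Cell := (((j % 32 : ℕ) : ℤ) - 11, ((j / 32 : ℕ) : ℤ) - 11)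

theorem cellAt_inj {j j' : ℕ} (h : cellAt j = cellAt j') : j = j' := by
  simp only [cellAt, Prod.mk.injEq] at h
  omega

/-- Membership of a cell in a mask. -/
def Mem (m : ℕ) (c : Cell) : Prop := ∃ j : ℕ, c = cellAt j ∧ m.testBit j = true

theorem mem_lor {m n : ℕ} {c : Cell} : Mem (Nat.lor m n) c ↔ Mem m c ∨ Mem n c := by
  constructor
  · rintro ⟨j, rfl, h⟩
    have h' : (m ||| n).testBit j = true := h
    rw [Nat.testBit_or, Bool.or_eq_true] at h'
    rcases h' with h' | h'
    · exact Or.inl ⟨j, rfl, h'⟩
    · exact Or.inr ⟨j, rfl, h'⟩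
  · rintro (⟨j, rfl, h⟩ | ⟨j, rfl, h⟩)
    · refine ⟨j, rfl, ?_⟩
      show (m ||| n).testBit j = true
      rw [Nat.testBit_or, h, Bool.true_or]
    · refine ⟨j, rfl, ?_⟩
      show (m ||| n).testBit j = true
      rw [Nat.testBit_or, h, Bool.or_true]

theorem mem_land {m n : ℕ} {c : Cell} (h1 : Mem m c) (h2 : Mem n c) : Mem (Nat.land m n) c := by
  obtain ⟨j, rfl, h⟩ := h1
  obtain ⟨j', he, h'⟩ := h2
  obtain rfl := cellAt_inj he
  refine ⟨j, rfl, ?_⟩
  show (m &&& n).testBit j = true
  rw [Nat.testBit_and, h, h', Bool.and_self]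

theorem not_mem_zero (c : Cell) : ¬ Mem 0 c := by
  rintro ⟨j, -, h⟩
  simp at h

theorem mem_bit {j : ℕ} {c : Cell} : Mem (Nat.shiftLeft 1 j) c ↔ c = cellAt j := by
  constructor
  · rintro ⟨j', rfl, h⟩
    have h' : (1 <<< j).testBit j' = true := h
    simp only [Nat.one_shiftLeft, Nat.testBit_two_pow, decide_eq_true_eq] at h'
    rw [h']
  · rintro rfl
    refine ⟨j, rfl, ?_⟩
    show (1 <<< j).testBit j = true
    simp [Nat.one_shiftLeft]

/-- Maker (to move) wins whenever he owns `M` and Breaker owns nothing in the zone `u`. -/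
def QQ (M u : ℕ) : Prop :=
  ∀ (M' B : Finset Cell), (∀ c, Mem M c → c ∈ M') → Disjoint M' B → (∀ c, Mem u c → c ∉ B) →
    MakerWins Set.univ IsCopy M' B

/-- Maker (to move) wins whenever he owns `M`, Breaker owns nothing in the zone `u` except possibly
one further cell `y`, which is not in `i`. -/
def PP (M u i : ℕ) : Prop :=
  ∀ (M' B : Finset Cell) (y : Cell), (∀ c, Mem M c → c ∈ M') → Disjoint M' (insert y B) →
    (∀ c, Mem u c → c ∉ B) → ¬ Mem i y → MakerWins Set.univ IsCopy M' (insert y B)

/-- Both statements. -/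
def RR (M u i : ℕ) : Prop := QQ M u ∧ PP M u i

theorem RR_of_QQ {M u : ℕ} (h : QQ M u) : RR M u u := by
  refine ⟨h, ?_⟩
  intro M' B y hM hd hu hy
  refine h M' (insert y B) hM hd ?_
  intro c hc hcB
  rcases Finset.mem_insert.mp hcB with rfl | h'
  · exact hy hc
  · exact hu c hc h'

theorem RR_union {M u1 i1 u2 i2 : ℕ} (h1 : RR M u1 i1) (h2 : RR M u2 i2) :
    RR M (Nat.lor u1 u2) (Nat.land i1 i2) := by
  constructor
  · intro M' B hM hd hu
    exact h1.1 M' B hM hd (fun c hc => hu c (mem_lor.mpr (Or.inl hc)))
  · intro M' B y hM hd hu hy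
    by_cases hy1 : Mem i1 y
    · refine h2.2 M' B y hM hd (fun c hc => hu c (mem_lor.mpr (Or.inr hc))) ?_
      intro hy2
      exact hy (mem_land hy1 hy2)
    · exact h1.2 M' B y hM hd (fun c hc => hu c (mem_lor.mpr (Or.inl hc))) hy1

theorem QQ_move {M u : ℕ} (j : ℕ) (h : RR (Nat.lor M (Nat.shiftLeft 1 j)) u 0) :
    QQ M (Nat.lor u (Nat.shiftLeft 1 j)) := by
  obtain ⟨Q1, P1⟩ := h
  intro M' B hM hd hu
  have hu' : ∀ c, Mem u c → c ∉ B := fun c hc => hu c (mem_lor.mpr (Or.inl hc))
  have hxB : cellAt j ∉ B := hu _ (mem_lor.mpr (Or.inr (mem_bit.mpr rfl)))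
  by_cases hx : cellAt j ∈ M'
  · refine Q1 M' B ?_ hd hu'
    intro c hc
    rcases mem_lor.mp hc with h1 | h1
    · exact hM c h1
    · rw [mem_bit.mp h1]; exact hx
  · refine MakerWins.step _ (Set.mem_univ _) hx hxB ?_ ?_
    · obtain ⟨z, hz⟩ := exists_free (insert (cellAt j) M' ∪ B)
      rw [Finset.mem_union, not_or] at hz
      exact ⟨z, Set.mem_univ _, hz.1, hz.2⟩
    · intro y _ hy1 hy2
      refine P1 _ B y ?_ ?_ hu' (not_mem_zero y)
      · intro c hc
        rcases mem_lor.mp hc with h1 | h1
        · exact Finset.mem_insert_of_mem (hM c h1)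
        · rw [mem_bit.mp h1]; exact Finset.mem_insert_self _ _
      · rw [Finset.disjoint_left]
        intro a ha hb
        rcases Finset.mem_insert.mp hb with rfl | hb'
        · exact hy1 ha
        · rcases Finset.mem_insert.mp ha with rfl | ha'
          · exact hxB hb'
          · exact (Finset.disjoint_left.mp hd) ha' hb'

/-- The eight shape masks, 130 bits each. -/
def BIG : ℕ := 5890680865688367783965143869628541747927862117911667081473931087011029280468639552668143635726836723099664516072949861511006038080870183242283271399474298286551564501240764435107908116184161065477119273314077181437629895882979730596656179836657432538576412061244235800743252069733235437254673033143428030411046927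

/-- The mask of the shape with orientation `o`. -/
def maskOf (o : ℕ) : ℕ :=
  Nat.land (Nat.shiftRight BIG (Nat.mul 130 o)) 1361129467683753853853498429727072845823

theorem maskOf_spec : (List.range 8).all (fun o => (shape o).all fun d =>
    decide (d.1 ≤ 4) && (maskOf o).testBit (d.1 + 32 * d.2)) = true := by
  decide +kernel

theorem QQ_win {M j o s : ℕ} (ho : o < 8) (hs : s % 32 ≤ 27)
    (h : Nat.land (Nat.shiftLeft (maskOf o) s) (Nat.lor M (Nat.shiftLeft 1 j)) =
      Nat.shiftLeft (maskOf o) s) : QQ M (Nat.shiftLeft 1 j) := by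
  intro M' B hM hd hu
  have hsub : copyAt o (s % 32) (s / 32) ⊆ insert (cellAt j) M' := by
    intro c hc
    simp only [copyAt, List.mem_toFinset, List.mem_map] at hc
    obtain ⟨d, hd', rfl⟩ := hc
    have h1 := List.all_eq_true.mp (List.all_eq_true.mp maskOf_spec o (List.mem_range.mpr ho)) d hd'
    simp only [Bool.and_eq_true, decide_eq_true_eq] at h1
    obtain ⟨h4, hb⟩ := h1
    have hcell : cellOf (s % 32 + d.1) (s / 32 + d.2) = cellAt (s + (d.1 + 32 * d.2)) := by
      simp only [cellOf, cellAt, Prod.mk.injEq]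
      constructor
      · have : (s + (d.1 + 32 * d.2)) % 32 = s % 32 + d.1 := by omega
        rw [this]
      · have : (s + (d.1 + 32 * d.2)) / 32 = s / 32 + d.2 := by omega
        rw [this]
    have hb2 : (Nat.shiftLeft (maskOf o) s).testBit (s + (d.1 + 32 * d.2)) = true := by
      show ((maskOf o) <<< s).testBit (s + (d.1 + 32 * d.2)) = true
      rw [Nat.testBit_shiftLeft]
      simp [hb]
    rw [← h] at hb2
    have hb3 : ((Nat.shiftLeft (maskOf o) s) &&& (Nat.lor M (Nat.shiftLeft 1 j))).testBit
        (s + (d.1 + 32 * d.2)) = true := hb2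
    rw [Nat.testBit_and, Bool.and_eq_true] at hb3
    have hm : Mem (Nat.lor M (Nat.shiftLeft 1 j)) (cellAt (s + (d.1 + 32 * d.2))) :=
      ⟨_, rfl, hb3.2⟩
    rw [hcell]
    rcases mem_lor.mp hm with h5 | h5
    · exact Finset.mem_insert_of_mem (hM _ h5)
    · rw [mem_bit.mp h5]; exact Finset.mem_insert_self _ _
  by_cases hx : cellAt j ∈ M'
  · obtain ⟨z, hz⟩ := exists_free (M' ∪ B)
    rw [Finset.mem_union, not_or] at hz
    refine MakerWins.win z (Set.mem_univ _) hz.1 hz.2 _ (isCopy_copyAt o (s % 32) (s / 32)) ?_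
    intro c hc
    rcases Finset.mem_insert.mp (hsub hc) with rfl | h'
    · exact Finset.mem_insert_of_mem hx
    · exact Finset.mem_insert_of_mem h'
  · exact MakerWins.win _ (Set.mem_univ _) hx (hu _ (mem_bit.mpr rfl)) _
      (isCopy_copyAt o _ _) hsub

/-- Results of the checker: union and intersection of the zones of a chain, and the rest of the
stream (current chunk and further chunks). -/
inductive Res
  | fail
  | ok (u i cur : ℕ) (rest : List ℕ)

/-- The type of the checker: number of alternatives, current chunk, further chunks, Maker's mask. -/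
abbrev Fn := ℕ → ℕ → List ℕ → ℕ → Res

/-- Continue a chain after a first certificate with zone `u1`. -/
noncomputable def chain (ih : Fn) (k M u1 cur : ℕ) (rest : List ℕ) : Res :=
  Bool.rec (motive := fun _ => Res)
    (Res.rec (motive := fun _ => Res) Res.fail
      (fun u2 i2 cur3 rest3 => Res.ok (Nat.lor u1 u2) (Nat.land u1 i2) cur3 rest3)
      (ih (Nat.sub k 1) cur rest M))
    (Res.ok u1 u1 cur rest)
    (Nat.ble k 1)

/-- A `move` node. -/
noncomputable def moveCase (ih : Fn) (k cur : ℕ) (rest : List ℕ) (M x : ℕ) : Res :=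
  Res.rec (motive := fun _ => Res) Res.fail
    (fun u i cur2 rest2 =>
      Bool.rec (motive := fun _ => Res) Res.fail (chain ih k M (Nat.lor u x) cur2 rest2)
        (Nat.beq i 0))
    (ih (Nat.div (Nat.mod cur 16777216) 2048) (Nat.shiftRight cur 24) rest (Nat.lor M x))

/-- A `win` node. -/
noncomputable def winCase (ih : Fn) (k cur : ℕ) (rest : List ℕ) (M x cp : ℕ) : Res :=
  Bool.rec (motive := fun _ => Res) Res.fail
    (Bool.rec (motive := fun _ => Res) Res.fail
      (chain ih k M x (Nat.shiftRight cur 24) rest)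
      (Nat.ble (Nat.mod (Nat.mod (Nat.div cur 16384) 1024) 32) 27))
    (Nat.beq (Nat.land cp (Nat.lor M x)) cp)

/-- The mask of the copy named by a `win` node. -/
def cpOf (cur : ℕ) : ℕ :=
  Nat.shiftLeft (maskOf (Nat.mod (Nat.div cur 2048) 8)) (Nat.mod (Nat.div cur 16384) 1024)

/-- The mask of the cell played by a node. -/
def xOf (cur : ℕ) : ℕ := Nat.shiftLeft 1 (Nat.mod (Nat.div cur 2) 1024)

/-- One step of the checker. A chunk equal to `1` is exhausted. -/
noncomputable def step (ih : Fn) : Fn := fun k cur rest M =>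
  Bool.rec (motive := fun _ => Res)
    (Bool.rec (motive := fun _ => Res)
      (moveCase ih k cur rest M (xOf cur))
      (winCase ih k cur rest M (xOf cur) (cpOf cur))
      (Nat.beq (Nat.mod cur 2) 0))
    (List.rec (motive := fun _ => Res) Res.fail (fun a l _ => ih k a l M) rest)
    (Nat.beq cur 1)

/-- The checker, with fuel. -/
noncomputable def run (f : ℕ) : Fn :=
  Nat.rec (motive := fun _ => Fn) (fun _ _ _ _ => Res.fail) (fun _ ih => step ih) f

/-- Soundness property of a checker. -/
def Sound (g : Fn) : Prop :=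
  ∀ k cur rest M u i c r, g k cur rest M = Res.ok u i c r → RR M u i

theorem chain_sound {ih : Fn} (hih : Sound ih) {k M u1 cur : ℕ} {rest : List ℕ} {u i c : ℕ}
    {r : List ℕ} (h1 : QQ M u1) (h : chain ih k M u1 cur rest = Res.ok u i c r) : RR M u i := by
  unfold chain at h
  cases hk : Nat.ble k 1
  · rw [hk] at h
    cases hr : ih (Nat.sub k 1) cur rest M with
    | fail => rw [hr] at h; exact absurd h (by simp)
    | ok u2 i2 c3 r3 =>
      rw [hr] at h
      simp only [Res.ok.injEq] at h
      obtain ⟨rfl, rfl, -, -⟩ := h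
      exact RR_union (RR_of_QQ h1) (hih _ _ _ _ _ _ _ _ hr)
  · rw [hk] at h
    simp only [Res.ok.injEq] at h
    obtain ⟨rfl, rfl, -, -⟩ := h
    exact RR_of_QQ h1

theorem step_sound {ih : Fn} (hih : Sound ih) : Sound (step ih) := by
  intro k cur rest M u i c r h
  unfold step at h
  cases h1 : Nat.beq cur 1
  · rw [h1] at h
    cases h2 : Nat.beq (Nat.mod cur 2) 0
    · rw [h2] at h
      -- move
      simp only [moveCase] at h
      cases hr : ih (Nat.div (Nat.mod cur 16777216) 2048) (Nat.shiftRight cur 24) rest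
          (Nat.lor M (xOf cur)) with
      | fail => rw [hr] at h; exact absurd h (by simp)
      | ok u2 i2 c2 r2 =>
        rw [hr] at h
        dsimp only at h
        cases h3 : Nat.beq i2 0
        · rw [h3] at h; exact absurd h (by simp)
        · rw [h3] at h
          have hi : i2 = 0 := Nat.eq_of_beq_eq_true h3
          subst hi
          exact chain_sound hih (QQ_move _ (hih _ _ _ _ _ _ _ _ hr)) h
    · rw [h2] at h
      simp only [winCase] at h
      cases h3 : Nat.beq (Nat.land (cpOf cur) (Nat.lor M (xOf cur))) (cpOf cur)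
      · rw [h3] at h; exact absurd h (by simp)
      · rw [h3] at h
        cases h4 : Nat.ble (Nat.mod (Nat.mod (Nat.div cur 16384) 1024) 32) 27
        · rw [h4] at h; exact absurd h (by simp)
        · rw [h4] at h
          refine chain_sound hih (QQ_win (o := Nat.mod (Nat.div cur 2048) 8)
            (s := Nat.mod (Nat.div cur 16384) 1024) (Nat.mod_lt _ (by norm_num))
            (Nat.le_of_ble_eq_true h4) (Nat.eq_of_beq_eq_true h3)) h
  · rw [h1] at h
    cases rest with
    | nil => exact absurd h (by simp)
    | cons a l => exact hih _ _ _ _ _ _ _ _ h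

theorem run_sound (f : ℕ) : Sound (run f) := by
  induction f with
  | zero => intro k cur rest M u i c r h; exact absurd h (by simp [run])
  | succ n ih => exact step_sound ih

/-- Add the sentinel bit to the chunks (64 nodes of 24 bits each). -/
def sent : List ℕ → List ℕ
  | [] => []
  | a :: l => Nat.lor a (Nat.shiftLeft 1 1536) :: sent l

/-- The test evaluated by the kernel: the chain of `k` certificates in `data` is valid for Maker's
mask `M`, with union of zones `u` and intersection of zones `i`. -/
noncomputable def check (k : ℕ) (data : List ℕ) (M u i : ℕ) : Bool :=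
  Res.rec (motive := fun _ => Bool) false
    (fun u' i' _ _ => Bool.rec (motive := fun _ => Bool) false (Nat.beq i' i) (Nat.beq u' u))
    (run 100000 k 1 (sent data) M)

theorem RR_of_check {k : ℕ} {data : List ℕ} {M u i : ℕ} (h : check k data M u i = true) :
    RR M u i := by
  unfold check at h
  cases hr : run 100000 k 1 (sent data) M with
  | fail => rw [hr] at h; exact absurd h (by simp)
  | ok u' i' c r =>
    rw [hr] at h
    dsimp only at h
    cases h1 : Nat.beq u' u
    · rw [h1] at h; exact absurd h (by simp)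
    · rw [h1] at h
      have hu : u' = u := Nat.eq_of_beq_eq_true h1
      have hi : i' = i := Nat.eq_of_beq_eq_true h
      subst hu; subst hi
      exact run_sound _ _ _ _ _ _ _ _ _ hr

/-- Union of two chains, with the masks given as literals. -/
theorem RR_union' {M u1 i1 u2 i2 u i : ℕ} (h1 : RR M u1 i1) (h2 : RR M u2 i2)
    (hu : Nat.lor u1 u2 = u) (hi : Nat.land i1 i2 = i) : RR M u i := by
  subst hu; subst hi
  exact RR_union h1 h2

/-- A Maker move followed by a chain with empty common zone, with the masks given as literals. -/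
theorem QQ_node {M M2 U z : ℕ} (j : ℕ) (h : RR M2 U 0) (hM : Nat.lor M (Nat.shiftLeft 1 j) = M2)
    (hz : Nat.lor U (Nat.shiftLeft 1 j) = z) : QQ M z := by
  subst hM; subst hz
  exact QQ_move j h

theorem not_mem_cellAt {u j : ℕ} (h : u.testBit j = false) : ¬ Mem u (cellAt j) := by
  rintro ⟨j', he, ht⟩
  obtain rfl := cellAt_inj he
  rw [h] at ht
  exact absurd ht (by simp)

/-- From a zone statement at the one-stone position to wins against first replies. -/
theorem wins_of_QQ {u : ℕ} (h : QQ (Nat.shiftLeft 1 363) u) (y : Cell) (hy0 : y ≠ (0, 0))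
    (hy : ¬ Mem u y) : MakerWins Set.univ IsCopy {(0, 0)} {y} := by
  have := (RR_of_QQ h).2 {(0, 0)} ∅ y ?_ ?_ (by simp) hy
  · simpa using this
  · intro c hc
    rw [mem_bit.mp hc]
    simp [cellAt]
  · simp only [insert_empty_eq, Finset.disjoint_singleton_right, Finset.mem_singleton]
    exact hy0

end Vale.Agent.Lib.P062.Fast
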