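import Vale.Agent.Lib.P062.Symm
import Vale.Agent.Lib.P062.Cert22
import Vale.Agent.Lib.P062.Cert31
import Vale.Agent.Lib.P062.Cert30
import Vale.Agent.Lib.P062.Cert21
import Vale.Agent.Lib.P062.Cert20

/-!
# Maker wins against every non-adjacent first reply
-/

namespace Vale.Agent.Lib.P062

/-- The intersection of the five zones. -/
def zoneI : ℕ := zone22 &&& (zone31 &&& (zone30 &&& (zone21 &&& zone20)))

theorem zoneI_lt : zoneI < 2 ^ 529 := by decide +kernel

theorem zoneI_check : ∀ a < 23, ∀ b < 23, zoneI.testBit (ix a b) = true →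
    ¬ (11 ≤ b ∧ b ≤ a ∧ 13 ≤ a) := by decide +kernel

theorem not_mem_zoneI {a b : ℤ} (hb : 0 ≤ b) (hab : b ≤ a) (ha : 2 ≤ a) : ¬ Mem zoneI (a, b) := by
  rintro ⟨a', b', he, ht⟩
  simp only [cellOf, Prod.mk.injEq] at he
  have hlt : a' < 23 ∧ b' < 23 := by
    by_contra hcon
    have hbig : 529 ≤ ix a' b' := by
      have h1 := Nat.max_sq_add_min_le_pair a' b'
      have h2 : 23 ≤ max a' b' := by
        rcases Nat.lt_or_ge a' 23 with h | h
        · rcases Nat.lt_or_ge b' 23 with h' | h'
          · exact absurd ⟨h, h'⟩ hcon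
          · exact le_trans h' (le_max_right _ _)
        · exact le_trans h (le_max_left _ _)
      have h3 : 23 ^ 2 ≤ max a' b' ^ 2 := Nat.pow_le_pow_left h2 2
      unfold ix
      omega
    have : zoneI < 2 ^ ix a' b' :=
      lt_of_lt_of_le zoneI_lt (Nat.pow_le_pow_right (by norm_num) hbig)
    rw [Nat.testBit_lt_two_pow this] at ht
    exact absurd ht (by simp)
  exact zoneI_check a' hlt.1 b' hlt.2 ht ⟨by omega, by omega, by omega⟩

theorem winsVs_octant (a b : ℤ) (hb : 0 ≤ b) (hab : b ≤ a) (ha : 2 ≤ a) : WinsVs (a, b) := by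
  have h0 : ((a, b) : Cell) ≠ (0, 0) := by
    intro h
    simp only [Prod.mk.injEq] at h
    omega
  by_cases h1 : Mem zone22 (a, b)
  · by_cases h2 : Mem zone31 (a, b)
    · by_cases h3 : Mem zone30 (a, b)
      · by_cases h4 : Mem zone21 (a, b)
        · by_cases h5 : Mem zone20 (a, b)
          · exact absurd (mem_and h1 (mem_and h2 (mem_and h3 (mem_and h4 h5))))
              (not_mem_zoneI hb hab ha)
          · exact wins_of_ex chk20 _ h0 h5
        · exact wins_of_ex chk21 _ h0 h4
      · exact wins_of_ex chk30 _ h0 h3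
    · exact wins_of_ex chk31 _ h0 h2
  · exact wins_of_ex chk22 _ h0 h1

theorem winsVs_far (y : Cell) (hy : 2 ≤ |y.1| ∨ 2 ≤ |y.2|) : WinsVs y := by
  refine winsVs_of_octant (fun c => |c.1| ≤ 1 ∧ |c.2| ≤ 1) ?_ ?_ ?_ y ?_
  · intro a b h
    exact ⟨h.2, h.1⟩
  · intro a b h
    simpa using h
  · intro a b hb hab hE
    refine winsVs_octant a b hb hab ?_
    by_contra hcon
    apply hE
    simp only [abs_le]
    constructor <;> constructor <;> omega
  · intro h
    rcases hy with h' | h'
    · exact absurd h.1 (by omega)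
    · exact absurd h.2 (by omega)

/-- Translations preserve copies. -/
theorem isCopy_add (o : Cell) (P : Finset Cell) (h : IsCopy P) :
    IsCopy (P.image (Equiv.addRight o)) := by
  obtain ⟨sw, fx, fy, t, rfl⟩ := h
  refine ⟨sw, fx, fy, t + o, ?_⟩
  rw [Finset.image_image]
  refine Finset.image_congr ?_
  intro c _
  simp only [Function.comp, Equiv.coe_addRight]
  abel

theorem wins_far (o y : Cell) (hy : 2 ≤ |y.1 - o.1| ∨ 2 ≤ |y.2 - o.2|) :
    MakerWins Set.univ IsCopy {o} {y} := by
  have h := winsVs_far (y - o) (by simpa using hy)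
  have := MakerWins.image (Equiv.addRight o) (isCopy_add o) h
  have h0 : ((0, 0) : Cell) + o = o := by
    ext <;> simp
  simpa [WinsVs, h0] using this

theorem not_copy_subset_singleton (P : Finset Cell) (hP : IsCopy P) (x : Cell) : ¬ P ⊆ {x} := by
  obtain ⟨sw, fx, fy, t, rfl⟩ := hP
  intro h
  have h1 : t + sgnPerm sw fx fy (0, 0) ∈ ({x} : Finset Cell) :=
    h (Finset.mem_image_of_mem _ (by simp [snaky]))
  have h2 : t + sgnPerm sw fx fy (1, 0) ∈ ({x} : Finset Cell) :=
    h (Finset.mem_image_of_mem _ (by simp [snaky]))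
  rw [Finset.mem_singleton] at h1 h2
  have h3 : sgnPerm sw fx fy (0, 0) = sgnPerm sw fx fy (1, 0) := add_left_cancel (h1.trans h2.symm)
  cases sw <;> cases fx <;> simp [sgnPerm] at h3

/-- The unhandicapped game is a Maker win if and only if Maker wins the two positions in which
Breaker answers the first stone on an orthogonally, respectively diagonally, adjacent cell. -/
theorem reduction : MakerWins Set.univ IsCopy ∅ ∅ ↔
    (MakerWins Set.univ IsCopy {(0, 0)} {(1, 0)} ∧ MakerWins Set.univ IsCopy {(0, 0)} {(1, 1)}) := by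
  constructor
  · intro h
    cases h with
    | win x _ _ _ P hP hsub => exact absurd (by simpa using hsub) (not_copy_subset_singleton P hP x)
    | step x _ _ _ _ h =>
      have key : ∀ d : Cell, d ≠ (0, 0) → MakerWins Set.univ IsCopy {(0, 0)} {d} := by
        intro d hd
        have h1 := h (d + x) (Set.mem_univ _) (by
          simp only [insert_empty_eq, Finset.mem_singleton]
          intro hh
          apply hd
          have : d + x = 0 + x := by rw [hh, zero_add]
          exact add_right_cancel this) (by simp)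
        have h2 := MakerWins.image (Equiv.addRight (-x)) (isCopy_add (-x)) h1
        have h3 : x + -x = ((0, 0) : Cell) := by
          rw [add_neg_cancel]; rfl
        simpa [h3] using h2
      exact ⟨key _ (by simp), key _ (by simp)⟩
  · rintro ⟨h10, h11⟩
    have a10 : WinsVs (1, 0) := h10
    have a11 : WinsVs (1, 1) := h11
    refine MakerWins.step (0, 0) (Set.mem_univ _) (by simp) (by simp)
      ⟨(1, 0), Set.mem_univ _, by simp, by simp⟩ ?_
    intro y _ hy _
    simp only [insert_empty_eq, Finset.mem_singleton] at hy ⊢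
    by_cases hfar : 2 ≤ |y.1| ∨ 2 ≤ |y.2|
    · exact winsVs_far y hfar
    · obtain ⟨a, b⟩ := y
      simp only [not_or, not_le] at hfar
      obtain ⟨ha, hb⟩ := hfar
      rw [abs_lt] at ha hb
      have ha' : a = -1 ∨ a = 0 ∨ a = 1 := by omega
      have hb' : b = -1 ∨ b = 0 ∨ b = 1 := by omega
      have n10 : WinsVs (-1, 0) := winsVs_neg a10
      have n11 : WinsVs (-1, 1) := winsVs_neg a11
      have s11 : WinsVs (1, -1) := winsVs_swap n11
      rcases ha' with rfl | rfl | rfl <;> rcases hb' with rfl | rfl | rfl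
      · exact winsVs_neg s11
      · exact n10
      · exact n11
      · exact winsVs_swap n10
      · exact absurd rfl hy
      · exact winsVs_swap a10
      · exact s11
      · exact a10
      · exact a11

end Vale.Agent.Lib.P062
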