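import Mathlib

/-!
# The Snaky achievement game: basic definitions

Maker-Breaker positional games on a board `Bd : Set α` with a family `W` of winning sets,
and the polyomino Snaky with its allowed copies in the square grid.
-/

namespace Vale.Agent.Lib.P062

/-- A cell of the square grid, indexed by its lower-left corner. -/
abbrev Cell := ℤ × ℤ

/-- The hexomino Snaky. -/
def snaky : Finset Cell := {(0, 0), (1, 0), (2, 0), (3, 0), (3, 1), (4, 1)}

/-- The action of the eight signed permutation matrices: optional sign changes of the two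
coordinates followed by an optional swap of the coordinates. -/
def sgnPerm (sw fx fy : Bool) (c : Cell) : Cell :=
  let d : Cell := (if fx then -c.1 else c.1, if fy then -c.2 else c.2)
  if sw then (d.2, d.1) else d

/-- `P` is an allowed copy of Snaky: `P = t + R(S)` with `R` a signed permutation matrix. -/
def IsCopy (P : Finset Cell) : Prop :=
  ∃ (sw fx fy : Bool) (t : Cell), P = snaky.image (fun c => t + sgnPerm sw fx fy c)

/-- `MakerWins Bd W M B`: in the Maker-Breaker game played on the board `Bd` with winning sets `W`,
in the position where Maker owns `M`, Breaker owns `B` and Maker is to move, Maker can force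
(in finitely many turns, against every legal Breaker play) ownership of a winning set. -/
inductive MakerWins {α : Type} [DecidableEq α] (Bd : Set α) (W : Finset α → Prop) :
    Finset α → Finset α → Prop
  | win {M B : Finset α} (x : α) (hx : x ∈ Bd) (hM : x ∉ M) (hB : x ∉ B)
      (P : Finset α) (hP : W P) (hsub : P ⊆ insert x M) : MakerWins Bd W M B
  | step {M B : Finset α} (x : α) (hx : x ∈ Bd) (hM : x ∉ M) (hB : x ∉ B)
      (hne : ∃ y, y ∈ Bd ∧ y ∉ insert x M ∧ y ∉ B)
      (h : ∀ y, y ∈ Bd → y ∉ insert x M → y ∉ B → MakerWins Bd W (insert x M) (insert y B)) :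
      MakerWins Bd W M B

/-- The position after `n` full rounds when Maker plays the cells `m 0, m 1, ...` and Breaker
answers with the strategy `σ` (a function of Maker's cells after his move and Breaker's cells). -/
def play {α : Type} [DecidableEq α] (σ : Finset α → Finset α → α) (m : ℕ → α) :
    ℕ → Finset α × Finset α
  | 0 => (∅, ∅)
  | n + 1 =>
    (insert (m n) (play σ m n).1,
      insert (σ (insert (m n) (play σ m n).1) (play σ m n).2) (play σ m n).2)

/-- `BreakerWins Bd W`: Breaker has a strategy `σ` such that, whatever legal cells Maker claims,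
every answer of `σ` is a legal move and Maker never owns a winning set. -/
def BreakerWins {α : Type} [DecidableEq α] (Bd : Set α) (W : Finset α → Prop) : Prop :=
  ∃ σ : Finset α → Finset α → α, ∀ m : ℕ → α,
    (∀ n, m n ∈ Bd ∧ m n ∉ (play σ m n).1 ∧ m n ∉ (play σ m n).2) →
    ∀ n, (σ (insert (m n) (play σ m n).1) (play σ m n).2 ∈ Bd ∧
        σ (insert (m n) (play σ m n).1) (play σ m n).2 ∉ insert (m n) (play σ m n).1 ∧
        σ (insert (m n) (play σ m n).1) (play σ m n).2 ∉ (play σ m n).2) ∧
      ¬ ∃ P, W P ∧ P ⊆ (play σ m (n + 1)).1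

section Invariant

variable {α : Type} [DecidableEq α] {Bd : Set α} {W : Finset α → Prop}

/-- A safety invariant for Breaker. -/
structure IsSafe (Bd : Set α) (W : Finset α → Prop) (Safe : Finset α → Finset α → Prop) : Prop where
  init : Safe ∅ ∅
  resp : ∀ M B x, Safe M B → x ∈ Bd → x ∉ M → x ∉ B →
    (¬ ∃ P, W P ∧ P ⊆ insert x M) ∧
    ∃ y, y ∈ Bd ∧ y ∉ insert x M ∧ y ∉ B ∧ Safe (insert x M) (insert y B)

theorem not_makerWins_of_safe {Safe : Finset α → Finset α → Prop} (hS : IsSafe Bd W Safe)
    {M B : Finset α} (h : Safe M B) : ¬ MakerWins Bd W M B := by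
  intro hw
  induction hw with
  | win x hx hM hB P hP hsub => exact (hS.resp _ _ x h hx hM hB).1 ⟨P, hP, hsub⟩
  | step x hx hM hB hne hstep ih =>
    obtain ⟨-, y, hy, hyM, hyB, hsafe⟩ := hS.resp _ _ x h hx hM hB
    exact ih y hy hyM hyB hsafe

theorem breakerWins_of_safe [Inhabited α] {Safe : Finset α → Finset α → Prop}
    (hS : IsSafe Bd W Safe) : BreakerWins Bd W := by
  classical
  -- the strategy: pick a safe legal answer when there is one
  let σ : Finset α → Finset α → α := fun M' B =>
    if h : ∃ y, y ∈ Bd ∧ y ∉ M' ∧ y ∉ B ∧ Safe M' (insert y B) then h.choose else default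
  refine ⟨σ, fun m hm => ?_⟩
  have key : ∀ n, Safe (play σ m n).1 (play σ m n).2 := by
    intro n
    induction n with
    | zero => exact hS.init
    | succ n ih =>
      obtain ⟨h1, h2, h3⟩ := hm n
      have hex := (hS.resp _ _ (m n) ih h1 h2 h3).2
      have hσ : σ (insert (m n) (play σ m n).1) (play σ m n).2 = hex.choose := by
        simp only [σ]
        rw [dif_pos hex]
      have := hex.choose_spec
      show Safe (insert (m n) (play σ m n).1)
        (insert (σ (insert (m n) (play σ m n).1) (play σ m n).2) (play σ m n).2)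
      rw [hσ]
      exact this.2.2.2
  intro n
  obtain ⟨h1, h2, h3⟩ := hm n
  have hr := hS.resp _ _ (m n) (key n) h1 h2 h3
  have hex := hr.2
  have hσ : σ (insert (m n) (play σ m n).1) (play σ m n).2 = hex.choose := by
    simp only [σ]
    rw [dif_pos hex]
  have hsp := hex.choose_spec
  refine ⟨?_, ?_⟩
  · rw [hσ]
    exact ⟨hsp.1, hsp.2.1, hsp.2.2.1⟩
  · exact hr.1

end Invariant

end Vale.Agent.Lib.P062
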