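import Vale.Agent.Lib.P062.Game

/-!
# Checkable certificates for Maker wins in the plane

A certificate is a strategy tree with relevance zones: after each Maker move it lists alternative
continuations whose zones (the cells that have to be free of Breaker stones) have empty
intersection, so that whatever Breaker answers, one continuation is still available.
Cells are addressed by shifted natural coordinates and sets of cells by bit masks.
-/

namespace Vale.Agent.Lib.P062

/-- Bit index of the cell with shifted coordinates `(a, b)`. -/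
def ix (a b : ℕ) : ℕ := Nat.pair a b

/-- The cell with shifted coordinates `(a, b)`. -/
def cellOf (a b : ℕ) : Cell := ((a : ℤ) - 11, (b : ℤ) - 11)

/-- The mask of a single cell. -/
def bitOf (a b : ℕ) : ℕ := 1 <<< ix a b

/-- Membership of a cell in a mask. -/
def Mem (m : ℕ) (c : Cell) : Prop := ∃ a b : ℕ, c = cellOf a b ∧ m.testBit (ix a b) = true

theorem cellOf_inj {a b a' b' : ℕ} (h : cellOf a b = cellOf a' b') : a = a' ∧ b = b' := by
  simp only [cellOf, Prod.mk.injEq] at h
  omega

theorem mem_or {m n : ℕ} {c : Cell} : Mem (m ||| n) c ↔ Mem m c ∨ Mem n c := by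
  constructor
  · rintro ⟨a, b, rfl, h⟩
    rw [Nat.testBit_or, Bool.or_eq_true] at h
    rcases h with h | h
    · exact Or.inl ⟨a, b, rfl, h⟩
    · exact Or.inr ⟨a, b, rfl, h⟩
  · rintro (⟨a, b, rfl, h⟩ | ⟨a, b, rfl, h⟩)
    · exact ⟨a, b, rfl, by rw [Nat.testBit_or, h, Bool.true_or]⟩
    · exact ⟨a, b, rfl, by rw [Nat.testBit_or, h, Bool.or_true]⟩

theorem mem_and {m n : ℕ} {c : Cell} (h1 : Mem m c) (h2 : Mem n c) : Mem (m &&& n) c := by
  obtain ⟨a, b, rfl, h⟩ := h1
  obtain ⟨a', b', he, h'⟩ := h2
  obtain ⟨rfl, rfl⟩ := cellOf_inj he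
  exact ⟨a, b, rfl, by rw [Nat.testBit_and, h, h', Bool.and_self]⟩

theorem not_mem_zero (c : Cell) : ¬ Mem 0 c := by
  rintro ⟨a, b, -, h⟩
  simp at h

theorem mem_bitOf {a b : ℕ} {c : Cell} : Mem (bitOf a b) c ↔ c = cellOf a b := by
  constructor
  · rintro ⟨a', b', rfl, h⟩
    simp only [bitOf, Nat.one_shiftLeft, Nat.testBit_two_pow, decide_eq_true_eq, ix] at h
    obtain ⟨rfl, rfl⟩ := Nat.pair_eq_pair.mp h
    rfl
  · rintro rfl
    exact ⟨a, b, rfl, by simp [bitOf, Nat.one_shiftLeft]⟩

/-- The eight orientations of Snaky, normalised to have minimal coordinates zero. -/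
def shape : ℕ → List (ℕ × ℕ)
  | 0 => [(0, 0), (1, 0), (2, 0), (3, 0), (3, 1), (4, 1)]
  | 1 => [(4, 0), (3, 0), (2, 0), (1, 0), (1, 1), (0, 1)]
  | 2 => [(0, 1), (1, 1), (2, 1), (3, 1), (3, 0), (4, 0)]
  | 3 => [(4, 1), (3, 1), (2, 1), (1, 1), (1, 0), (0, 0)]
  | 4 => [(0, 0), (0, 1), (0, 2), (0, 3), (1, 3), (1, 4)]
  | 5 => [(0, 4), (0, 3), (0, 2), (0, 1), (1, 1), (1, 0)]
  | 6 => [(1, 0), (1, 1), (1, 2), (1, 3), (0, 3), (0, 4)]
  | _ => [(1, 4), (1, 3), (1, 2), (1, 1), (0, 1), (0, 0)]

/-- The copy of Snaky with orientation `o` and lower-left corner `(ta, tb)`. -/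
def copyAt (o ta tb : ℕ) : Finset Cell :=
  ((shape o).map fun d => cellOf (ta + d.1) (tb + d.2)).toFinset

theorem isCopy_copyAt (o ta tb : ℕ) : IsCopy (copyAt o ta tb) := by
  have key : ∀ (sw fx fy : Bool) (t : Cell) (l : List (ℕ × ℕ)),
      (l.map fun d => cellOf (ta + d.1) (tb + d.2)) =
        ([(0, 0), (1, 0), (2, 0), (3, 0), (3, 1), (4, 1)] : List Cell).map
          (fun c => t + sgnPerm sw fx fy c) →
      IsCopy (l.map fun d => cellOf (ta + d.1) (tb + d.2)).toFinset := by
    intro sw fx fy t l h
    refine ⟨sw, fx, fy, t, ?_⟩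
    rw [h]
    ext c
    simp [snaky]
  unfold copyAt
  match o with
  | 0 =>
    refine key false false false (cellOf ta tb) _ ?_
    simp [shape, cellOf, sgnPerm]
    omega
  | 1 =>
    refine key false true false (cellOf (ta + 4) tb) _ ?_
    simp [shape, cellOf, sgnPerm]
    omega
  | 2 =>
    refine key false false true (cellOf ta (tb + 1)) _ ?_
    simp [shape, cellOf, sgnPerm]
    omega
  | 3 =>
    refine key false true true (cellOf (ta + 4) (tb + 1)) _ ?_
    simp [shape, cellOf, sgnPerm]
    omega
  | 4 =>
    refine key true false false (cellOf ta tb) _ ?_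
    simp [shape, cellOf, sgnPerm]
    omega
  | 5 =>
    refine key true true false (cellOf ta (tb + 4)) _ ?_
    simp [shape, cellOf, sgnPerm]
    omega
  | 6 =>
    refine key true false true (cellOf (ta + 1) tb) _ ?_
    simp [shape, cellOf, sgnPerm]
    omega
  | (n + 7) =>
    refine key true true true (cellOf (ta + 1) (tb + 4)) _ ?_
    simp [shape, cellOf, sgnPerm]
    omega

/-- Strategy certificates. `win` : Maker plays `(xa, xb)` and completes the copy `copyAt o ta tb`.
`move` : Maker plays `(xa, xb)` and continues with one of the alternatives in the chain `alts`.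
`alt c rest` : a chain of alternatives. -/
inductive MCert
  | win (xa xb o ta tb : ℕ)
  | move (xa xb : ℕ) (alts : MCert)
  | alt (c rest : MCert)

/-- Evaluate a number before passing it on (this only matters for the speed of evaluation). -/
def seqNat {α : Type} (n : ℕ) (k : ℕ → α) : α :=
  match n with
  | 0 => k 0
  | m + 1 => k (m + 1)

theorem seqNat_eq {α : Type} (n : ℕ) (k : ℕ → α) : seqNat n k = k n := by
  cases n <;> rfl

/-- The checker. `chk c M` returns the union and the intersection of the zones of the alternatives
of `c`, when `c` is a valid certificate for a position in which Maker owns the mask `M`. -/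
def chk : MCert → ℕ → Option (ℕ × ℕ)
  | .win xa xb o ta tb, M =>
    if (shape o).all (fun d => (ta + d.1 == xa && tb + d.2 == xb) ||
        M.testBit (ix (ta + d.1) (tb + d.2))) then some (bitOf xa xb, bitOf xa xb) else none
  | .move xa xb alts, M =>
    match chk alts (M ||| bitOf xa xb) with
    | some (u, i) => if i = 0 then some (u ||| bitOf xa xb, u ||| bitOf xa xb) else none
    | none => none
  | .alt c rest, M =>
    match chk c M, chk rest M with
    | some (u1, _), some (u2, i2) => some (u1 ||| u2, u1 &&& i2)
    | _, _ => none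

/-- Maker (to move) wins whenever he owns `M` and Breaker owns nothing in the zone `u`. -/
def QQ (M u : ℕ) : Prop :=
  ∀ (M' B : Finset Cell), (∀ c, Mem M c → c ∈ M') → Disjoint M' B → (∀ c, Mem u c → c ∉ B) →
    MakerWins Set.univ IsCopy M' B

/-- Maker (to move) wins whenever he owns `M`, Breaker owns nothing in the zone `u` except possibly
one further cell `y`, which is not in `i`. -/
def PP (M u i : ℕ) : Prop :=
  ∀ (M' B : Finset Cell) (y : Cell), (∀ c, Mem M c → c ∈ M') → Disjoint M' (insert y B) →
    (∀ c, Mem u c → c ∉ B) → ¬ Mem i y → MakerWins Set.univ IsCopy M' (insert y B)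

theorem PP_of_QQ {M u : ℕ} (h : QQ M u) : PP M u u := by
  intro M' B y hM hd hu hy
  refine h M' (insert y B) hM hd ?_
  intro c hc hcB
  rcases Finset.mem_insert.mp hcB with rfl | h'
  · exact hy hc
  · exact hu c hc h'

theorem exists_free (s : Finset Cell) : ∃ z : Cell, z ∉ s := Infinite.exists_notMem_finset s

theorem chk_sound : ∀ (c : MCert) (M u i : ℕ), chk c M = some (u, i) → QQ M u ∧ PP M u i := by
  intro c
  induction c with
  | win xa xb o ta tb =>
    intro M u i h
    simp only [chk] at h
    split at h
    · rename_i hall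
      simp only [Option.some.injEq, Prod.mk.injEq] at h
      obtain ⟨rfl, rfl⟩ := h
      have hQ : QQ M (bitOf xa xb) := by
        intro M' B hM hd hu
        have hsub : copyAt o ta tb ⊆ insert (cellOf xa xb) M' := by
          intro c hc
          simp only [copyAt, List.mem_toFinset, List.mem_map] at hc
          obtain ⟨d, hd', rfl⟩ := hc
          have := List.all_eq_true.mp hall d hd'
          simp only [Bool.or_eq_true, Bool.and_eq_true, beq_iff_eq] at this
          rcases this with ⟨h1, h2⟩ | h3
          · rw [h1, h2]; exact Finset.mem_insert_self _ _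
          · exact Finset.mem_insert_of_mem (hM _ ⟨_, _, rfl, h3⟩)
        by_cases hx : cellOf xa xb ∈ M'
        · obtain ⟨z, hz⟩ := exists_free (M' ∪ B)
          rw [Finset.mem_union, not_or] at hz
          refine MakerWins.win z (Set.mem_univ _) hz.1 hz.2 _ (isCopy_copyAt o ta tb) ?_
          intro c hc
          rcases Finset.mem_insert.mp (hsub hc) with rfl | h'
          · exact Finset.mem_insert_of_mem hx
          · exact Finset.mem_insert_of_mem h'
        · exact MakerWins.win _ (Set.mem_univ _) hx (hu _ (mem_bitOf.mpr rfl)) _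
            (isCopy_copyAt o ta tb) hsub
      exact ⟨hQ, PP_of_QQ hQ⟩
    · exact absurd h (by simp)
  | move xa xb alts ih =>
    intro M u i h
    simp only [chk] at h
    split at h
    · rename_i u' i' heq
      split at h
      · rename_i hi
        subst hi
        simp only [Option.some.injEq, Prod.mk.injEq] at h
        obtain ⟨rfl, rfl⟩ := h
        obtain ⟨Q1, P1⟩ := ih _ _ _ heq
        have hQ : QQ M (u' ||| bitOf xa xb) := by
          intro M' B hM hd hu
          have hu' : ∀ c, Mem u' c → c ∉ B := fun c hc => hu c (mem_or.mpr (Or.inl hc))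
          have hxB : cellOf xa xb ∉ B := hu _ (mem_or.mpr (Or.inr (mem_bitOf.mpr rfl)))
          by_cases hx : cellOf xa xb ∈ M'
          · refine Q1 M' B ?_ hd hu'
            intro c hc
            rcases mem_or.mp hc with h1 | h1
            · exact hM c h1
            · rw [mem_bitOf.mp h1]; exact hx
          · refine MakerWins.step _ (Set.mem_univ _) hx hxB ?_ ?_
            · obtain ⟨z, hz⟩ := exists_free (insert (cellOf xa xb) M' ∪ B)
              rw [Finset.mem_union, not_or] at hz
              exact ⟨z, Set.mem_univ _, hz.1, hz.2⟩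
            · intro y _ hy1 hy2
              refine P1 _ B y ?_ ?_ hu' (not_mem_zero y)
              · intro c hc
                rcases mem_or.mp hc with h1 | h1
                · exact Finset.mem_insert_of_mem (hM c h1)
                · rw [mem_bitOf.mp h1]; exact Finset.mem_insert_self _ _
              · rw [Finset.disjoint_left]
                intro a ha hb
                rcases Finset.mem_insert.mp hb with rfl | hb'
                · exact hy1 ha
                · rcases Finset.mem_insert.mp ha with rfl | ha'
                  · exact hxB hb'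
                  · exact (Finset.disjoint_left.mp hd) ha' hb'
        exact ⟨hQ, PP_of_QQ hQ⟩
      · exact absurd h (by simp)
    · exact absurd h (by simp)
  | alt c rest ihc ihr =>
    intro M u i h
    simp only [chk] at h
    split at h
    · rename_i u1 i1 u2 i2 h1 h2
      simp only [Option.some.injEq, Prod.mk.injEq] at h
      obtain ⟨rfl, rfl⟩ := h
      obtain ⟨Qc, -⟩ := ihc _ _ _ h1
      obtain ⟨-, Pr⟩ := ihr _ _ _ h2
      constructor
      · intro M' B hM hd hu
        exact Qc M' B hM hd (fun c hc => hu c (mem_or.mpr (Or.inl hc)))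
      · intro M' B y hM hd hu hy
        by_cases hy1 : Mem u1 y
        · refine Pr M' B y hM hd (fun c hc => hu c (mem_or.mpr (Or.inr hc))) ?_
          intro hy2
          exact hy (mem_and hy1 hy2)
        · exact PP_of_QQ Qc M' B y hM hd (fun c hc => hu c (mem_or.mpr (Or.inl hc))) hy1
    · exact absurd h (by simp)

/-- Root statement: with Maker's first stone at the origin, Maker wins against every first reply
outside the intersection mask of a valid chain of certificates. -/
theorem wins_of_chk (c : MCert) (u i : ℕ) (h : chk c (bitOf 11 11) = some (u, i)) (y : Cell)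
    (hy0 : y ≠ (0, 0)) (hy : ¬ Mem i y) : MakerWins Set.univ IsCopy {(0, 0)} {y} := by
  have := (chk_sound c _ _ _ h).2 {(0, 0)} ∅ y ?_ ?_ (by simp) hy
  · simpa using this
  · intro c hc
    rw [mem_bitOf.mp hc]
    simp [cellOf]
  · simp only [insert_empty_eq, Finset.disjoint_singleton_right, Finset.mem_singleton]
    exact hy0

end Vale.Agent.Lib.P062
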