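import Vale.Agent.Lib.P062.O10.OrTop
import Vale.Agent.Lib.P062.Diag

/-!
# Maker wins against the orthogonally adjacent first reply, hence Snaky is a winner
-/

namespace Vale.Agent.Lib.P062

/-- Maker wins the position with his stone at the origin and Breaker's stone at `(1, 0)`. -/
theorem winsVs_one_zero : WinsVs (1, 0) := by
  have h : Fast.QQ (Nat.shiftLeft 1 363) 300987390680370161624389044418565645873783325099154975895019456153310099354023759366366273204515145956245925095589633984247124453064380611776235140628569573651232867623487199439865741556277166182196129562624 :=
    (by decide +kernel : (18788340662190665823115844774314696219005460391266558965658327772257672200916867547709591987078149624255479808 : ℕ) = Nat.shiftLeft 1 363) ▸ Fast.OrTop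
  have hc : ((1, 0) : Cell) = Fast.cellAt 364 := by
    simp [Fast.cellAt]
  refine Fast.wins_of_QQ h (1, 0) (by simp) ?_
  rw [hc]
  exact Fast.not_mem_cellAt (by decide +kernel)

/-- Snaky is a winner. -/
theorem snaky_winner : MakerWins Set.univ IsCopy ∅ ∅ :=
  reduction.mpr ⟨winsVs_one_zero, winsVs_one_one⟩

/-- Maker wins the Snaky game on the empty plane (alternative name). -/
theorem makerWins_empty : MakerWins Set.univ IsCopy ∅ ∅ := snaky_winner

end Vale.Agent.Lib.P062
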