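import Vale.Agent.Lib.P062.Game

/-!
# Pairing strategies
-/

namespace Vale.Agent.Lib.P062

variable {α : Type} [DecidableEq α] {Bd : Set α} {W : Finset α → Prop}

/-- The invariant kept by a pairing strategy with partner map `π` (fixed points are unpaired). -/
def PairSafe (Bd : Set α) (π : α → α) (M B : Finset α) : Prop :=
  Disjoint M B ∧ (∀ a ∈ M, a ∈ Bd) ∧ ∀ a ∈ M, π a ≠ a → π a ∈ B

theorem pairing_isSafe (π : α → α) (hinv : ∀ x, π (π x) = x) (hBd : ∀ x ∈ Bd, π x ∈ Bd)
    (hW : ∀ P, W P → (∀ a ∈ P, a ∈ Bd) → ∃ a ∈ P, π a ∈ P ∧ π a ≠ a) (hinf : Bd.Infinite) :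
    IsSafe Bd W (PairSafe Bd π) := by
  constructor
  · exact ⟨by simp, by simp, by simp⟩
  · intro M B x hS hx hxM hxB
    obtain ⟨hdis, hMBd, hpair⟩ := hS
    have hMB : ∀ a, a ∈ M → a ∉ B := fun a ha hb => (Finset.disjoint_left.mp hdis) ha hb
    constructor
    · rintro ⟨P, hP, hsub⟩
      have hPBd : ∀ a ∈ P, a ∈ Bd := by
        intro a ha
        rcases Finset.mem_insert.mp (hsub ha) with h | h
        · exact h ▸ hx
        · exact hMBd a h
      obtain ⟨a, haP, hπP, hne⟩ := hW P hP hPBd
      rcases Finset.mem_insert.mp (hsub haP) with h | h
      · -- a = x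
        subst h
        rcases Finset.mem_insert.mp (hsub hπP) with h' | h'
        · exact hne h'
        · have h2 : π (π a) ≠ π a := by rw [hinv]; exact fun h => hne h.symm
          have := hpair _ h' h2
          rw [hinv] at this
          exact hxB this
      · have hb := hpair a h hne
        rcases Finset.mem_insert.mp (hsub hπP) with h' | h'
        · exact hxB (h' ▸ hb)
        · exact hMB _ h' hb
    · by_cases hc : π x ≠ x ∧ π x ∉ B
      · obtain ⟨hne, hnB⟩ := hc
        have hπM : π x ∉ M := by
          intro h'
          have h2 : π (π x) ≠ π x := by rw [hinv]; exact fun h => hne h.symm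
          have := hpair _ h' h2
          rw [hinv] at this
          exact hxB this
        refine ⟨π x, hBd x hx, ?_, hnB, ?_, ?_, ?_⟩
        · simp only [Finset.mem_insert, not_or]
          exact ⟨hne, hπM⟩
        · rw [Finset.disjoint_left]
          intro a ha hb
          rcases Finset.mem_insert.mp ha with h | h <;> rcases Finset.mem_insert.mp hb with h' | h'
          · exact hne (h'.symm.trans h)
          · exact hxB (h ▸ h')
          · exact hπM (h' ▸ h)
          · exact hMB a h h'
        · intro a ha
          rcases Finset.mem_insert.mp ha with h | h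
          · exact h ▸ hx
          · exact hMBd a h
        · intro a ha hna
          rcases Finset.mem_insert.mp ha with h | h
          · subst h; exact Finset.mem_insert_self _ _
          · exact Finset.mem_insert_of_mem (hpair a h hna)
      · -- any legal move
        have hfin : ((insert x M ∪ B : Finset α) : Set α).Finite := Finset.finite_toSet _
        obtain ⟨y, hy, hy'⟩ := (hinf.sdiff hfin).nonempty
        have hy1 : y ∉ insert x M := fun h =>
          hy' (Finset.mem_coe.mpr (Finset.mem_union_left _ h))
        have hy2 : y ∉ B := fun h => hy' (Finset.mem_coe.mpr (Finset.mem_union_right _ h))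
        refine ⟨y, hy, hy1, hy2, ?_, ?_, ?_⟩
        · rw [Finset.disjoint_left]
          intro a ha hb
          rcases Finset.mem_insert.mp hb with h' | h'
          · exact hy1 (h' ▸ ha)
          · rcases Finset.mem_insert.mp ha with h | h
            · exact hxB (h ▸ h')
            · exact hMB a h h'
        · intro a ha
          rcases Finset.mem_insert.mp ha with h | h
          · exact h ▸ hx
          · exact hMBd a h
        · intro a ha hna
          rcases Finset.mem_insert.mp ha with h | h
          · subst h
            by_contra hcon
            exact hc ⟨hna, fun h => hcon (Finset.mem_insert_of_mem h)⟩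
          · exact Finset.mem_insert_of_mem (hpair a h hna)

end Vale.Agent.Lib.P062
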