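import Vale.Agent.Lib.P062.Game

/-!
# From the inductive predicate to an explicit Maker strategy

A Maker strategy is a function `τ` of the list of Breaker's previous moves.  If `MakerWins` holds in
a position, then there is such a strategy which, against every infinite legal sequence of Breaker
moves, makes only legal moves and owns a winning set after finitely many turns.
-/

namespace Vale.Agent.Lib.P062

theorem strategy_of_makerWins {α : Type} [DecidableEq α] {W : Finset α → Prop}
    {M B : Finset α} (h : MakerWins Set.univ W M B) :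
    ∃ τ : List α → α, ∀ m b : ℕ → α,
      (∀ k, m k = τ ((List.range k).map b)) →
      (∀ n, b n ∉ M ∧ b n ∉ B ∧ (∀ k ≤ n, b n ≠ m k) ∧ ∀ k < n, b n ≠ b k) →
      ∃ n, (∀ k < n, m k ∉ M ∧ m k ∉ B ∧ (∀ j < k, m k ≠ m j) ∧ ∀ j < k, m k ≠ b j) ∧
        ∃ P, W P ∧ ∀ c ∈ P, c ∈ M ∨ ∃ k < n, m k = c := by
  classical
  induction h with
  | @win M B x hx hM hB P hP hsub =>
    refine ⟨fun _ => x, fun m b hm _ => ⟨1, ?_, P, hP, ?_⟩⟩
    · intro k hk
      have hk0 : k = 0 := by omega
      subst hk0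
      rw [hm 0]
      exact ⟨hM, hB, fun j hj => absurd hj (by omega), fun j hj => absurd hj (by omega)⟩
    · intro c hc
      rcases Finset.mem_insert.mp (hsub hc) with h1 | h1
      · exact Or.inr ⟨0, by omega, by rw [hm 0, h1]⟩
      · exact Or.inl h1
  | @step M B x hx hM hB hne h ih =>
    choose τ' hτ' using ih
    let τ : List α → α := fun l =>
      match l with
      | [] => x
      | y :: l' =>
        if hy : y ∉ insert x M ∧ y ∉ B then τ' y (Set.mem_univ y) hy.1 hy.2 l' else x
    refine ⟨τ, fun m b hm hb => ?_⟩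
    have hm0 : m 0 = x := by
      rw [hm 0]
      rfl
    obtain ⟨hb0M, hb0B, hb0m, -⟩ := hb 0
    have hyM : b 0 ∉ insert x M := by
      intro hmem
      rcases Finset.mem_insert.mp hmem with h1 | h1
      · exact hb0m 0 le_rfl (by rw [hm0, h1])
      · exact hb0M h1
    have hspec := hτ' (b 0) (Set.mem_univ _) hyM hb0B (fun k => m (k + 1)) (fun k => b (k + 1))
    have hfollow : ∀ k, m (k + 1) =
        τ' (b 0) (Set.mem_univ _) hyM hb0B ((List.range k).map (fun k => b (k + 1))) := by
      intro k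
      rw [hm (k + 1), List.range_succ_eq_map, List.map_cons, List.map_map]
      show (if hy : b 0 ∉ insert x M ∧ b 0 ∉ B then
        τ' (b 0) (Set.mem_univ _) hy.1 hy.2 ((List.range k).map (b ∘ Nat.succ)) else x) = _
      rw [dif_pos ⟨hyM, hb0B⟩]
      rfl
    have hlegal : ∀ n, b (n + 1) ∉ insert x M ∧ b (n + 1) ∉ insert (b 0) B ∧
        (∀ k ≤ n, b (n + 1) ≠ m (k + 1)) ∧ ∀ k < n, b (n + 1) ≠ b (k + 1) := by
      intro n
      obtain ⟨h1, h2, h3, h4⟩ := hb (n + 1)
      refine ⟨?_, ?_, fun k hk => h3 (k + 1) (by omega), fun k hk => h4 (k + 1) (by omega)⟩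
      · intro hmem
        rcases Finset.mem_insert.mp hmem with h5 | h5
        · exact h3 0 (by omega) (by rw [hm0, h5])
        · exact h1 h5
      · intro hmem
        rcases Finset.mem_insert.mp hmem with h5 | h5
        · exact h4 0 (by omega) h5
        · exact h2 h5
    obtain ⟨n, hn, P, hP, hPsub⟩ := hspec hfollow hlegal
    refine ⟨n + 1, ?_, P, hP, ?_⟩
    · intro k hk
      cases k with
      | zero =>
        rw [hm0]
        exact ⟨hM, hB, fun j hj => absurd hj (by omega), fun j hj => absurd hj (by omega)⟩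
      | succ k =>
        obtain ⟨h1, h2, h3, h4⟩ := hn k (by omega)
        rw [Finset.mem_insert, not_or] at h1 h2
        refine ⟨h1.2, h2.2, ?_, ?_⟩
        · intro j hj
          cases j with
          | zero => rw [hm0]; exact h1.1
          | succ j => exact h3 j (by omega)
        · intro j hj
          cases j with
          | zero => exact h2.1
          | succ j => exact h4 j (by omega)
    · intro c hc
      rcases hPsub c hc with h1 | ⟨k, hk, h1⟩
      · rcases Finset.mem_insert.mp h1 with h2 | h2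
        · exact Or.inr ⟨0, by omega, by rw [hm0, h2]⟩
        · exact Or.inl h2
      · exact Or.inr ⟨k + 1, by omega, h1⟩

/-- The strategy form of a Maker win in the Snaky game on the empty plane, with all notions
unfolded. -/
theorem strategy_form (h : MakerWins Set.univ IsCopy ∅ ∅) :
    ∃ τ : List (ℤ × ℤ) → ℤ × ℤ, ∀ m b : ℕ → ℤ × ℤ,
      (∀ k, m k = τ ((List.range k).map b)) →
      (∀ n, (∀ k ≤ n, b n ≠ m k) ∧ ∀ k < n, b n ≠ b k) →
      ∃ n, (∀ k < n, (∀ j < k, m k ≠ m j) ∧ ∀ j < k, m k ≠ b j) ∧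
        ∃ (t : ℤ × ℤ) (p q r s : ℤ),
          ((|p| = 1 ∧ q = 0 ∧ r = 0 ∧ |s| = 1) ∨ (p = 0 ∧ |q| = 1 ∧ |r| = 1 ∧ s = 0)) ∧
          ∀ c ∈ ({(0, 0), (1, 0), (2, 0), (3, 0), (3, 1), (4, 1)} : Finset (ℤ × ℤ)),
            ∃ k < n, m k = (t.1 + (p * c.1 + q * c.2), t.2 + (r * c.1 + s * c.2)) := by
  obtain ⟨τ, hτ⟩ := strategy_of_makerWins h
  refine ⟨τ, fun m b hm hb => ?_⟩
  obtain ⟨n, hn, P, ⟨sw, fx, fy, t, rfl⟩, hsub⟩ := hτ m b hm
    (fun n => ⟨Finset.notMem_empty _, Finset.notMem_empty _, (hb n).1, (hb n).2⟩)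
  refine ⟨n, fun k hk => ⟨(hn k hk).2.2.1, (hn k hk).2.2.2⟩, t, ?_⟩
  have key : ∀ c ∈ snaky, ∃ k < n, m k = t + sgnPerm sw fx fy c := by
    intro c hc
    rcases hsub _ (Finset.mem_image_of_mem _ hc) with h1 | h1
    · exact absurd h1 (Finset.notMem_empty _)
    · exact h1
  refine ⟨if sw then 0 else (if fx then -1 else 1), if sw then (if fy then -1 else 1) else 0,
    if sw then (if fx then -1 else 1) else 0, if sw then 0 else (if fy then -1 else 1), ?_, ?_⟩
  · cases sw <;> cases fx <;> cases fy <;> simp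
  · intro c hc
    obtain ⟨k, hk, hmk⟩ := key c hc
    refine ⟨k, hk, ?_⟩
    rw [hmk]
    cases sw <;> cases fx <;> cases fy <;> simp [sgnPerm, Prod.ext_iff]

end Vale.Agent.Lib.P062
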