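import Vale.Agent.Lib.P062.Game

/-!
# Symmetries of the Snaky game in the plane
-/

namespace Vale.Agent.Lib.P062

/-- A bijection of the board that preserves the winning sets preserves Maker wins. -/
theorem MakerWins.image {α : Type} [DecidableEq α] {W : Finset α → Prop} (e : α ≃ α)
    (hW : ∀ P, W P → W (P.image e)) {M B : Finset α} (h : MakerWins Set.univ W M B) :
    MakerWins Set.univ W (M.image e) (B.image e) := by
  have hmem : ∀ (s : Finset α) (x : α), e x ∈ s.image e ↔ x ∈ s := by
    intro s x
    simp [Finset.mem_image]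
  induction h with
  | win x _ hM hB P hP hsub =>
    refine MakerWins.win (e x) (Set.mem_univ _) ?_ ?_ (P.image e) (hW P hP) ?_
    · rwa [hmem]
    · rwa [hmem]
    · rw [← Finset.image_insert]
      exact Finset.image_subset_image hsub
  | step x _ hM hB hne _ ih =>
    rename_i M B
    refine MakerWins.step (e x) (Set.mem_univ _) ?_ ?_ ?_ ?_
    · rwa [hmem]
    · rwa [hmem]
    · obtain ⟨y, -, hy1, hy2⟩ := hne
      refine ⟨e y, Set.mem_univ _, ?_, ?_⟩
      · rw [← Finset.image_insert, hmem]; exact hy1
      · rwa [hmem]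
    · intro y' _ hy1 hy2
      obtain ⟨y, rfl⟩ := e.surjective y'
      rw [← Finset.image_insert, hmem] at hy1
      rw [hmem] at hy2
      have := ih y (Set.mem_univ _) hy1 hy2
      rwa [Finset.image_insert, Finset.image_insert] at this

/-- Swapping the two coordinates. -/
def swapE : Cell ≃ Cell := Equiv.prodComm ℤ ℤ

/-- Reflection of the first coordinate. -/
def negE : Cell ≃ Cell where
  toFun c := (-c.1, c.2)
  invFun c := (-c.1, c.2)
  left_inv c := by simp
  right_inv c := by simp

theorem isCopy_swap (P : Finset Cell) (h : IsCopy P) : IsCopy (P.image swapE) := by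
  obtain ⟨sw, fx, fy, t, rfl⟩ := h
  refine ⟨!sw, fx, fy, swapE t, ?_⟩
  rw [Finset.image_image]
  refine Finset.image_congr ?_
  intro c _
  cases sw <;> simp [swapE, sgnPerm]

theorem isCopy_neg (P : Finset Cell) (h : IsCopy P) : IsCopy (P.image negE) := by
  obtain ⟨sw, fx, fy, t, rfl⟩ := h
  cases sw
  · refine ⟨false, !fx, fy, negE t, ?_⟩
    rw [Finset.image_image]
    refine Finset.image_congr ?_
    intro c _
    cases fx <;> simp [negE, sgnPerm] <;> ring
  · refine ⟨true, fx, !fy, negE t, ?_⟩
    rw [Finset.image_image]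
    refine Finset.image_congr ?_
    intro c _
    cases fy <;> simp [negE, sgnPerm] <;> ring

/-- The statement: Maker, to move, wins with his stone at the origin and Breaker's stone at `y`. -/
def WinsVs (y : Cell) : Prop := MakerWins Set.univ IsCopy {(0, 0)} {y}

theorem winsVs_swap {a b : ℤ} (h : WinsVs (a, b)) : WinsVs (b, a) := by
  have := MakerWins.image swapE isCopy_swap h
  simpa [WinsVs, swapE] using this

theorem winsVs_neg {a b : ℤ} (h : WinsVs (a, b)) : WinsVs (-a, b) := by
  have := MakerWins.image negE isCopy_neg h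
  simpa [WinsVs, negE] using this

/-- Reduction to the octant `0 ≤ b ≤ a`. -/
theorem winsVs_of_octant (Ex : Cell → Prop)
    (hswap : ∀ a b, Ex (a, b) → Ex (b, a)) (hneg : ∀ a b, Ex (a, b) → Ex (-a, b))
    (h : ∀ a b : ℤ, 0 ≤ b → b ≤ a → ¬ Ex (a, b) → WinsVs (a, b)) (y : Cell) (hy : ¬ Ex y) :
    WinsVs y := by
  -- first quadrant
  have h1 : ∀ a b : ℤ, 0 ≤ a → 0 ≤ b → ¬ Ex (a, b) → WinsVs (a, b) := by
    intro a b ha hb hE
    rcases le_total b a with hab | hab
    · exact h a b hb hab hE
    · exact winsVs_swap (h b a ha hab (fun hh => hE (hswap _ _ hh)))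
  have h2 : ∀ a b : ℤ, 0 ≤ b → ¬ Ex (a, b) → WinsVs (a, b) := by
    intro a b hb hE
    rcases le_total 0 a with ha | ha
    · exact h1 a b ha hb hE
    · have := winsVs_neg (h1 (-a) b (by omega) hb (fun hh => hE (by simpa using hneg _ _ hh)))
      simpa using this
  obtain ⟨a, b⟩ := y
  rcases le_total 0 b with hb | hb
  · exact h2 a b hb hy
  · -- reflect the second coordinate: swap, negate, swap
    have hE' : ¬ Ex (a, -b) := by
      intro hh
      apply hy
      have := hswap _ _ (hneg _ _ (hswap _ _ hh))
      simpa using this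
    have := winsVs_swap (winsVs_neg (winsVs_swap (h2 a (-b) (by omega) hE')))
    simpa using this

end Vale.Agent.Lib.P062
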